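import Vale.Agent.P256.H387.LMR

/-! Reduction to a flat line.

A kernel `T` with a representation `T = ξᵀ M ξ - Σ e_ab d_a d_b` (`M` positive semidefinite,
`M ξ = Σ d_a A_a`) whose limit form `sup_q val w q` is nonnegative has a null space `nul`
(a linear subspace), and for every finite family of linear forms vanishing on it there is `c > 0`
such that `T + δ |d|² - c |λ(d)|²` is a sum of squares for all `δ > 0` (`KRep.star`).  If `T`
is not a sum of squares, then all the null spaces of all representations of `T` (in the same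
generators `d`) have a common nonzero vector (`exists_common`). -/

set_option linter.all false

namespace Vale.Agent.P256.H760

open Filter Topology Matrix Vale.Agent.P256 Vale.Agent.P256.H326 Vale.Agent.P256.H387

variable {L X : Type*} {F : Filter L} {G : Filter X}

/-! ### the limit form -/

section Val

variable {κ ι : Type*} [Fintype κ] [Fintype ι]

/-- the limit vector `u(w) = Σ w_a α_a` -/
def uu (α : κ → ι → ℝ) (w : κ → ℝ) (i : ι) : ℝ := ∑ a, w a * α a i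

/-- the limit error form -/
def ee (e0 : κ → κ → ℝ) (w : κ → ℝ) : ℝ := ∑ a, ∑ b, e0 a b * w a * w b

/-- `2⟨q, u(w)⟩ - ⟨q, M₀ q⟩ - e₀(w)` -/
def val (α : κ → ι → ℝ) (M0 : Matrix ι ι ℝ) (e0 : κ → κ → ℝ) (w : κ → ℝ) (q : ι → ℝ) : ℝ :=
  2 * (q ⬝ᵥ uu α w) - q ⬝ᵥ (M0 *ᵥ q) - ee e0 w

variable {α : κ → ι → ℝ} {M0 : Matrix ι ι ℝ} {e0 : κ → κ → ℝ}

theorem uu_add (w w' : κ → ℝ) : uu α (w + w') = uu α w + uu α w' := by
  funext i
  simp only [uu, Pi.add_apply, add_mul, Finset.sum_add_distrib]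

theorem uu_smul (c : ℝ) (w : κ → ℝ) : uu α (c • w) = c • uu α w := by
  funext i
  simp only [uu, Pi.smul_apply, smul_eq_mul, Finset.mul_sum]
  exact Finset.sum_congr rfl fun a _ => by ring

theorem uu_sub (w w' : κ → ℝ) : uu α (w - w') = uu α w - uu α w' := by
  funext i
  simp only [uu, Pi.sub_apply, sub_mul, Finset.sum_sub_distrib]

theorem uu_zero : uu α (0 : κ → ℝ) = 0 := by
  funext i; simp [uu]

theorem ee_smul (c : ℝ) (w : κ → ℝ) : ee e0 (c • w) = c ^ 2 * ee e0 w := by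
  simp only [ee, Pi.smul_apply, smul_eq_mul, Finset.mul_sum]
  exact Finset.sum_congr rfl fun a _ => Finset.sum_congr rfl fun b _ => by ring

theorem ee_zero : ee e0 (0 : κ → ℝ) = 0 := by simp [ee]

theorem ee_para (w w' : κ → ℝ) : ee e0 (w + w') + ee e0 (w - w') = 2 * ee e0 w + 2 * ee e0 w' := by
  simp only [ee, Pi.add_apply, Pi.sub_apply, Finset.mul_sum, ← Finset.sum_add_distrib]
  exact Finset.sum_congr rfl fun a _ => Finset.sum_congr rfl fun b _ => by ring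

theorem val_smul (c : ℝ) (w : κ → ℝ) (q : ι → ℝ) :
    val α M0 e0 (c • w) (c • q) = c ^ 2 * val α M0 e0 w q := by
  simp only [val, uu_smul, ee_smul, Matrix.mulVec_smul, smul_dotProduct, dotProduct_smul,
    smul_eq_mul]
  ring

theorem val_zero (q : ι → ℝ) : val α M0 e0 (0 : κ → ℝ) q = - (q ⬝ᵥ (M0 *ᵥ q)) := by
  simp only [val, uu_zero, ee_zero, dotProduct_zero]
  ring

/-- the parallelogram law -/
theorem val_para (h0 : M0.IsHermitian) (w w' : κ → ℝ) (q q' : ι → ℝ) :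
    val α M0 e0 (w + w') (q + q') + val α M0 e0 (w - w') (q - q') =
      2 * val α M0 e0 w q + 2 * val α M0 e0 w' q' := by
  have h1 := ee_para (e0 := e0) w w'
  simp only [val, uu_add, uu_sub, Matrix.mulVec_add, Matrix.mulVec_sub, add_dotProduct,
    sub_dotProduct, dotProduct_add, dotProduct_sub]
  linear_combination (-1 : ℝ) * h1

theorem para_aux (q q2 : ι → ℝ) : (1 / 2 : ℝ) • (q + q2) + (1 / 2 : ℝ) • (q - q2) = q := by
  funext i; simp only [Pi.add_apply, Pi.smul_apply, Pi.sub_apply, smul_eq_mul]; ring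

theorem para_aux' (q q2 : ι → ℝ) : (1 / 2 : ℝ) • (q + q2) - (1 / 2 : ℝ) • (q - q2) = q2 := by
  funext i; simp only [Pi.add_apply, Pi.smul_apply, Pi.sub_apply, smul_eq_mul]; ring

/-- the null space of a representation whose limit form is nonnegative -/
def nul (h0 : M0.PosSemidef)
    (hQ : ∀ (w : κ → ℝ) (ε : ℝ), 0 < ε → ∃ q, -ε < val α M0 e0 w q) :
    Submodule ℝ (κ → ℝ) where
  carrier := {w | ∀ q, val α M0 e0 w q ≤ 0}
  zero_mem' := by
    intro q
    rw [val_zero]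
    have := psd_nonneg h0 q
    linarith
  add_mem' := by
    intro w w' hw hw' q
    by_contra hneg
    push Not at hneg
    obtain ⟨q2, hq2⟩ := hQ (w - w') _ hneg
    have h1 := val_para (α := α) (e0 := e0) h0.1 w w' ((1 / 2 : ℝ) • (q + q2))
      ((1 / 2 : ℝ) • (q - q2))
    rw [para_aux, para_aux'] at h1
    have h2 := hw ((1 / 2 : ℝ) • (q + q2))
    have h3 := hw' ((1 / 2 : ℝ) • (q - q2))
    linarith
  smul_mem' := by
    intro c w hw q
    rcases eq_or_ne c 0 with rfl | hc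
    · rw [zero_smul, val_zero]
      have := psd_nonneg h0 q
      linarith
    · have h1 := val_smul (α := α) (M0 := M0) (e0 := e0) c w (c⁻¹ • q)
      rw [smul_inv_smul₀ hc] at h1
      rw [h1]
      have := hw (c⁻¹ • q)
      nlinarith [sq_nonneg c]

theorem mem_nul {h0 : M0.PosSemidef}
    {hQ : ∀ (w : κ → ℝ) (ε : ℝ), 0 < ε → ∃ q, -ε < val α M0 e0 w q} {w : κ → ℝ} :
    w ∈ nul h0 hQ ↔ ∀ q, val α M0 e0 w q ≤ 0 := Iff.rfl

/-- a null vector pairs to zero with the kernel of `M₀` -/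
theorem nul_pair {w : κ → ℝ} (hw : ∀ q, val α M0 e0 w q ≤ 0) {q : ι → ℝ} (hq : M0 *ᵥ q = 0) :
    q ⬝ᵥ uu α w = 0 := by
  by_contra hne
  have h1 : ∀ c : ℝ, 2 * c * (q ⬝ᵥ uu α w) ≤ ee e0 w := by
    intro c
    have := hw (c • q)
    simp only [val, Matrix.mulVec_smul, smul_dotProduct, dotProduct_smul, smul_eq_mul, hq,
      dotProduct_zero, mul_zero] at this
    linarith
  have h2 := h1 ((ee e0 w + 1) / (2 * (q ⬝ᵥ uu α w)))
  have h3 : 2 * ((ee e0 w + 1) / (2 * (q ⬝ᵥ uu α w))) * (q ⬝ᵥ uu α w) = ee e0 w + 1 := by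
    field_simp
  linarith

/-- a null vector `w` with `e₀(w) = 0` has `u(w) = 0` -/
theorem nul_uu {w : κ → ℝ} (hw : ∀ q, val α M0 e0 w q ≤ 0) (he : ee e0 w = 0) :
    uu α w = 0 := by
  by_contra hne
  set u := uu α w with hu
  have hpos : 0 < u ⬝ᵥ u := by
    obtain ⟨i, hi⟩ := Function.ne_iff.1 hne
    have h1 : u i * u i ≤ u ⬝ᵥ u :=
      Finset.single_le_sum (f := fun j => u j * u j) (fun j _ => mul_self_nonneg _)
        (Finset.mem_univ i)
    have h2 : 0 < u i * u i := by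
      have : u i ≠ 0 := by simpa using hi
      exact mul_self_pos.2 this
    linarith
  set m := u ⬝ᵥ (M0 *ᵥ u) with hm
  have h1 : ∀ c : ℝ, 2 * c * (u ⬝ᵥ u) - c ^ 2 * m ≤ 0 := by
    intro c
    have := hw (c • u)
    simp only [val, Matrix.mulVec_smul, smul_dotProduct, dotProduct_smul, smul_eq_mul, ← hu, he,
      ← hm] at this
    linarith
  have hc : (0 : ℝ) < |m| + 1 := by positivity
  have h2 := h1 ((u ⬝ᵥ u) / (|m| + 1))
  have h3 : (u ⬝ᵥ u / (|m| + 1)) ^ 2 * m ≤ (u ⬝ᵥ u / (|m| + 1)) * (u ⬝ᵥ u) := by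
    have h4 : (u ⬝ᵥ u / (|m| + 1)) * m ≤ u ⬝ᵥ u := by
      rw [div_mul_eq_mul_div, div_le_iff₀ hc]
      nlinarith [le_abs_self m]
    have h5 : 0 ≤ u ⬝ᵥ u / (|m| + 1) := by positivity
    nlinarith
  have h6 : 0 < u ⬝ᵥ u / (|m| + 1) * (u ⬝ᵥ u) := by positivity
  linarith

theorem continuous_uu (α : κ → ι → ℝ) : Continuous (uu α) := by
  refine continuous_pi fun i => ?_
  show Continuous fun w : κ → ℝ => ∑ a, w a * α a i
  fun_prop

theorem continuous_ee (e0 : κ → κ → ℝ) : Continuous (ee e0) := by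
  show Continuous fun w : κ → ℝ => ∑ a, ∑ b, e0 a b * w a * w b
  fun_prop

theorem continuous_val (q : ι → ℝ) : Continuous fun w => val α M0 e0 w q := by
  have h1 : Continuous fun w : κ → ℝ => q ⬝ᵥ uu α w :=
    Continuous.dotProduct continuous_const (continuous_uu α)
  exact (((continuous_const.mul h1).sub continuous_const).sub (continuous_ee e0))

/-- the limit form is bounded below by `c · λ(w)²` for linear forms `λ` vanishing on `nul` -/
theorem exists_lower (h0 : M0.PosSemidef)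
    (hQ : ∀ (w : κ → ℝ) (ε : ℝ), 0 < ε → ∃ q, -ε < val α M0 e0 w q)
    {ρ : Type*} [Fintype ρ] (lam : ρ → κ → ℝ)
    (hlam : ∀ w, (∀ q, val α M0 e0 w q ≤ 0) → ∀ k, ∑ a, lam k a * w a = 0) :
    ∃ c : ℝ, 0 < c ∧ ∀ (w : κ → ℝ) (ε : ℝ), 0 < ε →
      ∃ q, c * ∑ k, (∑ a, lam k a * w a) ^ 2 - ε < val α M0 e0 w q := by
  classical
  -- a complement of `nul`
  obtain ⟨N', hN'⟩ := Submodule.exists_isCompl (nul h0 hQ)
  let lf : (κ → ℝ) → ℝ := fun w => ∑ k, (∑ a, lam k a * w a) ^ 2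
  have hlfc : Continuous lf := by
    show Continuous fun w : κ → ℝ => ∑ k, (∑ a, lam k a * w a) ^ 2
    fun_prop
  -- the unit sphere of the complement
  let K : Set (κ → ℝ) := {w | w ∈ N' ∧ ‖w‖ = 1}
  have hKc : IsCompact K := by
    have h1 : IsClosed (N' : Set (κ → ℝ)) := N'.closed_of_finiteDimensional
    have h2 : K = (N' : Set (κ → ℝ)) ∩ Metric.sphere 0 1 := by
      ext w
      simp only [K, Set.mem_setOf_eq, Set.mem_inter_iff, mem_sphere_zero_iff_norm, SetLike.mem_coe]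
    rw [h2]
    exact (isCompact_sphere (0 : κ → ℝ) 1).inter_left h1
  have hstrict : ∀ w ∈ K, ∃ q, 0 < val α M0 e0 w q := by
    intro w hw
    by_contra hcon
    push Not at hcon
    have h1 : w ∈ nul h0 hQ := hcon
    have h2 : w = 0 := by
      have := hN'.disjoint.le_bot (show w ∈ nul h0 hQ ⊓ N' from ⟨h1, hw.1⟩)
      simpa using this
    have h3 := hw.2
    rw [h2, norm_zero] at h3
    exact zero_ne_one h3
  -- a uniform lower bound on the sphere
  obtain ⟨m, hm, hmK⟩ : ∃ m : ℝ, 0 < m ∧ ∀ w ∈ K, ∃ q, m < val α M0 e0 w q := by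
    have hcov : K ⊆ ⋃ n : ℕ, {w | ∃ q, 1 / ((n : ℝ) + 1) < val α M0 e0 w q} := by
      intro w hw
      obtain ⟨q, hq⟩ := hstrict w hw
      obtain ⟨n, hn⟩ := (tendsto_one_div_add_atTop_nhds_zero_nat (𝕜 := ℝ)).eventually_lt_const hq
        |>.exists
      exact Set.mem_iUnion.2 ⟨n, q, hn⟩
    have hopen : ∀ n : ℕ, IsOpen {w : κ → ℝ | ∃ q, 1 / ((n : ℝ) + 1) < val α M0 e0 w q} := by
      intro n
      have : {w : κ → ℝ | ∃ q, 1 / ((n : ℝ) + 1) < val α M0 e0 w q} =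
          ⋃ q : ι → ℝ, {w | 1 / ((n : ℝ) + 1) < val α M0 e0 w q} := by
        ext w; simp
      rw [this]
      exact isOpen_iUnion fun q => isOpen_lt continuous_const (continuous_val q)
    have hdir : Directed (· ⊆ ·)
        (fun n : ℕ => {w : κ → ℝ | ∃ q, 1 / ((n : ℝ) + 1) < val α M0 e0 w q}) := by
      refine directed_of_isDirected_le ?_
      rintro n m hnm w ⟨q, hq⟩
      have h2 : 1 / ((m : ℝ) + 1) ≤ 1 / ((n : ℝ) + 1) := by
        refine one_div_le_one_div_of_le (by positivity) ?_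
        have : (n : ℝ) ≤ m := by exact_mod_cast hnm
        linarith
      exact ⟨q, lt_of_le_of_lt h2 hq⟩
    obtain ⟨n, hn⟩ := hKc.elim_directed_cover _ hopen hcov hdir
    exact ⟨1 / ((n : ℝ) + 1), by positivity, fun w hw => hn hw⟩
  -- an upper bound for the linear forms
  obtain ⟨C, hC, hCb⟩ : ∃ C : ℝ, 0 < C ∧ ∀ w : κ → ℝ, lf w ≤ C * ‖w‖ ^ 2 := by
    refine ⟨1 + ∑ k, (∑ a, |lam k a|) ^ 2, by positivity, fun w => ?_⟩
    have h1 : ∀ k, (∑ a, lam k a * w a) ^ 2 ≤ (∑ a, |lam k a|) ^ 2 * ‖w‖ ^ 2 := by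
      intro k
      rw [← mul_pow]
      refine sq_le_sq' ?_ ?_
      · have : |∑ a, lam k a * w a| ≤ (∑ a, |lam k a|) * ‖w‖ := by
          refine (Finset.abs_sum_le_sum_abs _ _).trans ?_
          rw [Finset.sum_mul]
          refine Finset.sum_le_sum fun a _ => ?_
          rw [abs_mul]
          exact mul_le_mul_of_nonneg_left (by simpa using norm_le_pi_norm w a) (abs_nonneg _)
        exact (abs_le.1 this).1
      · have : |∑ a, lam k a * w a| ≤ (∑ a, |lam k a|) * ‖w‖ := by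
          refine (Finset.abs_sum_le_sum_abs _ _).trans ?_
          rw [Finset.sum_mul]
          refine Finset.sum_le_sum fun a _ => ?_
          rw [abs_mul]
          exact mul_le_mul_of_nonneg_left (by simpa using norm_le_pi_norm w a) (abs_nonneg _)
        exact (abs_le.1 this).2
    calc lf w ≤ ∑ k, (∑ a, |lam k a|) ^ 2 * ‖w‖ ^ 2 := Finset.sum_le_sum fun k _ => h1 k
      _ = (∑ k, (∑ a, |lam k a|) ^ 2) * ‖w‖ ^ 2 := by rw [Finset.sum_mul]
      _ ≤ (1 + ∑ k, (∑ a, |lam k a|) ^ 2) * ‖w‖ ^ 2 := by nlinarith [sq_nonneg ‖w‖]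
  refine ⟨m / (2 * C), by positivity, fun w ε hε => ?_⟩
  -- decompose `w = n + w'`
  obtain ⟨n, hn, w', hw', rfl⟩ : ∃ n ∈ nul h0 hQ, ∃ w' ∈ N', n + w' = w := by
    have := hN'.codisjoint.eq_top
    have h2 : w ∈ nul h0 hQ ⊔ N' := by rw [this]; exact Submodule.mem_top
    exact Submodule.mem_sup.1 h2
  have hlf : lf (n + w') = lf w' := by
    show ∑ k, (∑ a, lam k a * (n + w') a) ^ 2 = ∑ k, (∑ a, lam k a * w' a) ^ 2
    refine Finset.sum_congr rfl fun k _ => ?_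
    have h1 := hlam n hn k
    have h2 : ∑ a, lam k a * (n + w') a = ∑ a, lam k a * n a + ∑ a, lam k a * w' a := by
      rw [← Finset.sum_add_distrib]
      exact Finset.sum_congr rfl fun a _ => by rw [Pi.add_apply]; ring
    rw [h2, h1, zero_add]
  show ∃ q, m / (2 * C) * lf (n + w') - ε < _
  rw [hlf]
  -- lower bound at `w'`
  obtain ⟨q', hq'⟩ : ∃ q', m * ‖w'‖ ^ 2 ≤ val α M0 e0 w' q' := by
    rcases eq_or_ne w' 0 with rfl | hne
    · refine ⟨0, ?_⟩
      rw [val_zero]; simp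
    · have hnw : 0 < ‖w'‖ := norm_pos_iff.2 hne
      obtain ⟨q, hq⟩ := hmK (‖w'‖⁻¹ • w') ⟨N'.smul_mem _ hw', by
        rw [norm_smul, norm_inv, norm_norm, inv_mul_cancel₀ hnw.ne']⟩
      refine ⟨‖w'‖ • q, ?_⟩
      have h1 := val_smul (α := α) (M0 := M0) (e0 := e0) ‖w'‖ (‖w'‖⁻¹ • w') q
      rw [smul_inv_smul₀ hnw.ne'] at h1
      rw [h1]
      nlinarith [sq_nonneg ‖w'‖]
  -- transfer to `n + w'`
  obtain ⟨q3, hq3⟩ := hQ ((n + w') + n) (ε) hε
  have h1 := val_para (α := α) (M0 := M0) (e0 := e0) h0.1 (n + w') (-n) ((1 / 2 : ℝ) • (q' + q3))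
    ((1 / 2 : ℝ) • (q' - q3))
  rw [para_aux, para_aux'] at h1
  have e1 : n + w' + -n = w' := by abel
  have e2 : n + w' - -n = (n + w') + n := by abel
  rw [e1, e2] at h1
  have h2 : val α M0 e0 (-n) ((1 / 2 : ℝ) • (q' - q3)) ≤ 0 :=
    (nul h0 hQ).neg_mem hn _
  refine ⟨(1 / 2 : ℝ) • (q' + q3), ?_⟩
  have h3 : m / (2 * C) * lf w' ≤ m / 2 * ‖w'‖ ^ 2 := by
    have h4 := hCb w'
    calc m / (2 * C) * lf w' ≤ m / (2 * C) * (C * ‖w'‖ ^ 2) :=
          mul_le_mul_of_nonneg_left h4 (by positivity)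
      _ = m / 2 * ‖w'‖ ^ 2 := by field_simp
  linarith

end Val

/-! ### quadratic forms -/

theorem quad_diag {κ : Type*} [Fintype κ] [DecidableEq κ] (m : ℝ) (w : κ → ℝ) :
    ∑ a, ∑ b, (if a = b then m else 0) * w a * w b = m * ∑ a, w a ^ 2 := by
  rw [Finset.mul_sum]
  refine Finset.sum_congr rfl fun a _ => ?_
  rw [Finset.sum_eq_single a]
  · rw [if_pos rfl]; ring
  · intro b _ hb; rw [if_neg (Ne.symm hb)]; ring
  · intro h; exact absurd (Finset.mem_univ a) h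

theorem quad_sq {κ ρ : Type*} [Fintype κ] [Fintype ρ] (c : ℝ) (lam : ρ → κ → ℝ) (w : κ → ℝ) :
    ∑ a, ∑ b, (c * ∑ k, lam k a * lam k b) * w a * w b = c * ∑ k, (∑ a, lam k a * w a) ^ 2 := by
  have h1 : ∀ k : ρ, (∑ a, lam k a * w a) ^ 2 = ∑ a, ∑ b, (lam k a * lam k b) * w a * w b := by
    intro k
    rw [sq, Finset.sum_mul_sum]
    exact Finset.sum_congr rfl fun a _ => Finset.sum_congr rfl fun b _ => by ring
  have h2 : ∑ k : ρ, (∑ a, lam k a * w a) ^ 2 =
      ∑ a, ∑ b, ∑ k : ρ, (lam k a * lam k b) * w a * w b := by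
    rw [Finset.sum_congr rfl fun k _ => h1 k, Finset.sum_comm]
    exact Finset.sum_congr rfl fun a _ => Finset.sum_comm
  rw [h2, Finset.mul_sum]
  refine Finset.sum_congr rfl fun a _ => ?_
  rw [Finset.mul_sum]
  refine Finset.sum_congr rfl fun b _ => ?_
  rw [Finset.mul_sum, Finset.mul_sum, Finset.sum_mul, Finset.sum_mul]
  exact Finset.sum_congr rfl fun k _ => by ring

theorem quad_finset {κ Φ : Type*} [Fintype κ] (s : Finset Φ) (f : Φ → κ → κ → ℝ) (w : κ → ℝ) :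
    ∑ a, ∑ b, (∑ g ∈ s, f g a b) * w a * w b = ∑ g ∈ s, ∑ a, ∑ b, f g a b * w a * w b := by
  symm
  rw [Finset.sum_comm]
  refine Finset.sum_congr rfl fun a _ => ?_
  rw [Finset.sum_comm]
  refine Finset.sum_congr rfl fun b _ => ?_
  rw [Finset.sum_mul, Finset.sum_mul]

theorem quad_sub {κ : Type*} [Fintype κ] (f g : κ → κ → ℝ) (w : κ → ℝ) :
    ∑ a, ∑ b, (f a b - g a b) * w a * w b =
      ∑ a, ∑ b, f a b * w a * w b - ∑ a, ∑ b, g a b * w a * w b := by
  rw [← Finset.sum_sub_distrib]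
  refine Finset.sum_congr rfl fun a _ => ?_
  rw [← Finset.sum_sub_distrib]
  exact Finset.sum_congr rfl fun b _ => by ring

/-! ### representations of a kernel -/

/-- a representation `T = ξᵀ M ξ - Σ e_ab d_a d_b`, `M ξ = Σ d_a A_a` of the kernel `T` -/
structure KRep (F : Filter L) (G : Filter X) {κ : Type*} [Fintype κ] (T : L → X → ℝ)
    (d : κ → L → X → ℝ) (ι : Type*) [Fintype ι] where
  M : X → Matrix ι ι ℝ
  M0 : Matrix ι ι ℝ
  ξ : L → ι → ℝ
  A : κ → ι → L → X → ℝ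
  α : κ → ι → ℝ
  e : κ → κ → L → X → ℝ
  e0 : κ → κ → ℝ
  hM : ∀ᶠ x in G, (M x).PosSemidef
  h0 : M0.PosSemidef
  hM0 : ∀ i j, Tendsto (fun x => M x i j) G (𝓝 (M0 i j))
  hA : ∀ a i, GermFR F G (A a i) (α a i)
  hU : ∀ i, EqF F G (fun l x => (M x *ᵥ ξ l) i) (fun l x => ∑ a, d a l x * A a i l x)
  he : ∀ a b, GermFR F G (e a b) (e0 a b)
  hT : EqF F G T (fun l x => ∑ i, ∑ j, M x i j * ξ l i * ξ l j -
    ∑ a, ∑ b, e a b l x * d a l x * d b l x)
  hQ : ∀ (w : κ → ℝ) (ε : ℝ), 0 < ε → ∃ q, -ε < val α M0 e0 w q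

namespace KRep

variable {κ : Type*} [Fintype κ] {T : L → X → ℝ} {d : κ → L → X → ℝ} {ι : Type*} [Fintype ι]

/-- the null space of the limit form -/
def N (r : KRep F G T d ι) : Submodule ℝ (κ → ℝ) := nul r.h0 r.hQ

theorem mem_N {r : KRep F G T d ι} {w : κ → ℝ} :
    w ∈ r.N ↔ ∀ q, val r.α r.M0 r.e0 w q ≤ 0 := Iff.rfl

/-- a null vector pairs to zero with the kernel of `M₀` -/
theorem pair {r : KRep F G T d ι} {w : κ → ℝ} (hw : w ∈ r.N) {q : ι → ℝ}
    (hq : r.M0 *ᵥ q = 0) : q ⬝ᵥ uu r.α w = 0 := nul_pair hw hq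

theorem uu_eq_zero {r : KRep F G T d ι} {w : κ → ℝ} (hw : w ∈ r.N) (he : ee r.e0 w = 0) :
    uu r.α w = 0 := nul_uu hw he

/-- **(STAR)** `T + δ |d|² - c |λ(d)|²` is a sum of squares for all `δ > 0`, with `c > 0`
independent of `δ`, for linear forms `λ` vanishing on the null space. -/
theorem star (r : KRep F G T d ι) (hd : ∀ a, FR (d a)) {ρ : Type*} [Fintype ρ]
    (lam : ρ → κ → ℝ) (hlam : ∀ w ∈ r.N, ∀ k, ∑ a, lam k a * w a = 0) :
    ∃ c : ℝ, 0 < c ∧ ∀ δ : ℝ, 0 < δ →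
      SosF F G (fun l x => T l x + δ * ∑ a, d a l x ^ 2 -
        c * ∑ k, (∑ a, lam k a * d a l x) ^ 2) := by
  classical
  obtain ⟨c, hc, hcb⟩ := exists_lower r.h0 r.hQ lam hlam
  refine ⟨c, hc, fun δ hδ => ?_⟩
  -- modified error form
  let f : κ → κ → ℝ := fun a b => (if a = b then δ else 0) - c * ∑ k, lam k a * lam k b
  have hf : ∀ w : κ → ℝ, ∑ a, ∑ b, f a b * w a * w b =
      δ * ∑ a, w a ^ 2 - c * ∑ k, (∑ a, lam k a * w a) ^ 2 := by
    intro w
    rw [← quad_diag, ← quad_sq, ← quad_sub]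
  refine sosF_lmr (σ := Empty) (κ := κ) (ι := ι) (M := r.M) (M0 := r.M0) r.hM r.h0 r.hM0 r.ξ hd
    r.hA r.hU (e := fun a b l x => r.e a b l x - f a b) (e0 := fun a b => r.e0 a b - f a b)
    (fun a b => (r.he a b).sub (GermFR.const (f a b)))
    (R := fun k _ _ _ => k.elim) (ρ := fun k _ => k.elim) (fun k => k.elim) (fun k => k.elim) ?_ ?_
  · intro w hw _
    have hw2 : 0 < ∑ a, w a ^ 2 := by
      obtain ⟨i, hi⟩ := Function.ne_iff.1 hw
      have h1 : w i ^ 2 ≤ ∑ j, w j ^ 2 :=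
        Finset.single_le_sum (f := fun j => w j ^ 2) (fun j _ => sq_nonneg _) (Finset.mem_univ i)
      have h2 : 0 < w i ^ 2 := by
        have : w i ≠ 0 := by simpa using hi
        positivity
      linarith
    obtain ⟨q, hq⟩ := hcb w (δ * ∑ a, w a ^ 2) (by positivity)
    refine ⟨q, ?_⟩
    have e1 : ∑ i, ∑ j, r.M0 i j * q i * q j = q ⬝ᵥ (r.M0 *ᵥ q) := (dot_mulVec_eq _ _ _).symm
    have e2 : ∑ i, q i * ∑ a, w a * r.α a i = q ⬝ᵥ uu r.α w := rfl
    have e3 : ∑ a, ∑ b, (r.e0 a b - f a b) * w a * w b = ee r.e0 w -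
        (δ * ∑ a, w a ^ 2 - c * ∑ k, (∑ a, lam k a * w a) ^ 2) := by
      rw [← hf, ee, ← quad_sub]
    rw [e1, e2, e3]
    unfold val at hq
    linarith
  · obtain ⟨A1, hA1, B1, hB1, heq⟩ := r.hT
    refine ⟨A1, hA1, B1, hB1, fun l hl x hx => ?_⟩
    show T l x + δ * ∑ a, d a l x ^ 2 - c * ∑ k, (∑ a, lam k a * d a l x) ^ 2 =
      ∑ i, ∑ j, r.M x i j * r.ξ l i * r.ξ l j -
        ∑ a, ∑ b, (r.e a b l x - f a b) * d a l x * d b l x
    rw [heq l hl x hx]
    have e3 : ∑ a, ∑ b, (r.e a b l x - f a b) * d a l x * d b l x =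
        ∑ a, ∑ b, r.e a b l x * d a l x * d b l x -
        (δ * ∑ a, d a l x ^ 2 - c * ∑ k, (∑ a, lam k a * d a l x) ^ 2) := by
      rw [← hf (fun a => d a l x)]
      exact quad_sub _ _ _
    rw [e3]
    ring

end KRep

/-! ### common null vector -/

/-- a subspace of `κ → ℝ` is the common kernel of `κ` linear forms -/
theorem exists_forms {κ : Type*} [Fintype κ] (N : Submodule ℝ (κ → ℝ)) :
    ∃ lam : κ → κ → ℝ, ∀ w : κ → ℝ, w ∈ N ↔ ∀ k, ∑ a, lam k a * w a = 0 := by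
  classical
  obtain ⟨N', hN'⟩ := Submodule.exists_isCompl N
  let P : (κ → ℝ) →ₗ[ℝ] (κ → ℝ) := N'.subtype ∘ₗ Submodule.projectionOnto N' N hN'.symm
  have hker : ∀ w, P w = 0 ↔ w ∈ N := by
    intro w
    have h1 : P w = 0 ↔ Submodule.projectionOnto N' N hN'.symm w = 0 := by
      show ((Submodule.projectionOnto N' N hN'.symm w : N') : κ → ℝ) = 0 ↔ _
      rw [Submodule.coe_eq_zero]
    rw [h1, Submodule.projectionOnto_apply_eq_zero_iff]
  refine ⟨fun k a => P (Pi.single a 1) k, fun w => ?_⟩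
  have h2 : ∀ k, P w k = ∑ a, P (Pi.single a 1) k * w a := by
    intro k
    have h3 : w = ∑ a, w a • (Pi.single a (1 : ℝ) : κ → ℝ) := by
      funext b
      simp [Finset.sum_apply, Pi.single_apply]
    conv_lhs => rw [h3]
    rw [map_sum, Finset.sum_apply]
    refine Finset.sum_congr rfl fun a _ => ?_
    rw [map_smul, Pi.smul_apply, smul_eq_mul]
    ring
  rw [← hker, funext_iff]
  exact forall_congr' fun k => by rw [← h2 k]; rfl

/-- in finite dimension an intersection is a finite intersection -/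
theorem exists_finset_inf {V : Type*} [AddCommGroup V] [Module ℝ V] [FiniteDimensional ℝ V]
    {Φ : Type*} (N : Φ → Submodule ℝ V) :
    ∃ s : Finset Φ, ∀ v, (∀ f ∈ s, v ∈ N f) → ∀ f, v ∈ N f := by
  classical
  have hwf : WellFounded ((· < ·) : Submodule ℝ V → Submodule ℝ V → Prop) := wellFounded_lt
  obtain ⟨M, ⟨s, hs⟩, hmin⟩ := hwf.has_min (Set.range fun s : Finset Φ => s.inf N) ⟨_, ∅, rfl⟩
  refine ⟨s, fun v hv f => ?_⟩
  have h1 : ¬ (insert f s).inf N < M := hmin _ ⟨insert f s, rfl⟩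
  have h2 : (insert f s).inf N ≤ M := by
    rw [← hs]
    exact Finset.inf_mono (Finset.subset_insert f s)
  have h3 : (insert f s).inf N = M := le_antisymm h2 (not_lt_iff_le_imp_ge.1 h1 h2)
  have h4 : M ≤ N f := by
    rw [← h3]
    exact Finset.inf_le (Finset.mem_insert_self f s)
  refine h4 ?_
  rw [← hs, Submodule.mem_finsetInf]
  exact hv

/-- a positive definite form on `κ → ℝ` dominates a multiple of the norm -/
theorem exists_pd_lower {κ : Type*} [Fintype κ] {Q : (κ → ℝ) → ℝ} (hc : Continuous Q)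
    (hs : ∀ (c : ℝ) w, Q (c • w) = c ^ 2 * Q w) (hp : ∀ w, w ≠ 0 → 0 < Q w) :
    ∃ m : ℝ, 0 < m ∧ ∀ w, w ≠ 0 → m * ∑ a, w a ^ 2 < Q w := by
  classical
  have hKc : IsCompact (Metric.sphere (0 : κ → ℝ) 1) := isCompact_sphere _ _
  rcases (Metric.sphere (0 : κ → ℝ) 1).eq_empty_or_nonempty with hem | hne
  · refine ⟨1, one_pos, fun w hw => ?_⟩
    exfalso
    have hnw : 0 < ‖w‖ := norm_pos_iff.2 hw
    have : ‖w‖⁻¹ • w ∈ Metric.sphere (0 : κ → ℝ) 1 := by
      rw [mem_sphere_zero_iff_norm, norm_smul, norm_inv, norm_norm, inv_mul_cancel₀ hnw.ne']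
    rw [hem] at this
    exact this
  · obtain ⟨w0, hw0, hmin⟩ := hKc.exists_isMinOn hne hc.continuousOn
    have hw0' : w0 ≠ 0 := by
      rintro rfl
      rw [mem_sphere_zero_iff_norm, norm_zero] at hw0
      exact zero_ne_one hw0
    have hm := hp w0 hw0'
    refine ⟨Q w0 / (Fintype.card κ + 1), by positivity, fun w hw => ?_⟩
    have hnw : 0 < ‖w‖ := norm_pos_iff.2 hw
    have h1 : Q w0 ≤ Q (‖w‖⁻¹ • w) := by
      refine hmin ?_
      rw [mem_sphere_zero_iff_norm, norm_smul, norm_inv, norm_norm, inv_mul_cancel₀ hnw.ne']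
    rw [hs] at h1
    have h2 : Q w0 * ‖w‖ ^ 2 ≤ Q w := by
      have : (‖w‖⁻¹) ^ 2 * Q w * ‖w‖ ^ 2 = Q w := by
        field_simp
      rw [← this]
      exact mul_le_mul_of_nonneg_right h1 (sq_nonneg _)
    have h3 : ∑ a, w a ^ 2 ≤ Fintype.card κ * ‖w‖ ^ 2 := by
      have : ∀ a ∈ Finset.univ, w a ^ 2 ≤ ‖w‖ ^ 2 := by
        intro a _
        have := norm_le_pi_norm w a
        rw [Real.norm_eq_abs] at this
        exact sq_le_sq' (abs_le.1 this).1 (abs_le.1 this).2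
      calc ∑ a, w a ^ 2 ≤ ∑ a : κ, ‖w‖ ^ 2 := Finset.sum_le_sum this
        _ = _ := by rw [Finset.sum_const, Finset.card_univ, nsmul_eq_mul]
    have hcpos : (0 : ℝ) < Fintype.card κ + 1 := by positivity
    have hn2 : 0 < ‖w‖ ^ 2 := by positivity
    calc Q w0 / (Fintype.card κ + 1) * ∑ a, w a ^ 2
        ≤ Q w0 / (Fintype.card κ + 1) * (Fintype.card κ * ‖w‖ ^ 2) :=
          mul_le_mul_of_nonneg_left h3 (by positivity)
      _ < Q w0 * ‖w‖ ^ 2 := by
          rw [div_mul_eq_mul_div, div_lt_iff₀ hcpos]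
          nlinarith [mul_pos hm hn2]
      _ ≤ Q w := h2

/-- a positive definite form with constant coefficients in finite rank kernels is a sum of
squares -/
theorem sosF_pd {κ : Type*} [Fintype κ] {d : κ → L → X → ℝ} (hd : ∀ a, FR (d a))
    (C : κ → κ → ℝ) (hp : ∀ w : κ → ℝ, w ≠ 0 → 0 < ∑ a, ∑ b, C a b * w a * w b) :
    SosF F G (fun l x => ∑ a, ∑ b, C a b * d a l x * d b l x) :=
  sosF_of_syzygy (F := F) (G := G) (f := d) hd (κ := Empty)
    (M := fun a b _ _ => C a b) (C := C) (fun a b => GermFR.const (C a b))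
    (R := fun k _ _ _ => k.elim) (ρ := fun k _ => k.elim) (fun k => k.elim) (fun k => k.elim)
    (fun w hw _ => hp w hw)

/-- finitely many lower bounds which are jointly positive definite -/
theorem sosF_of_family {κ : Type*} [Fintype κ] {T : L → X → ℝ} {d : κ → L → X → ℝ}
    (hd : ∀ a, FR (d a)) {Φ ρ : Type*} [Fintype ρ] (s : Finset Φ) (hsne : s.Nonempty)
    (lam : Φ → ρ → κ → ℝ) (c : Φ → ℝ) (hc : ∀ f, 0 < c f)
    (hcs : ∀ f, ∀ δ : ℝ, 0 < δ → SosF F G (fun l x => T l x + δ * ∑ a, d a l x ^ 2 -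
        c f * ∑ k, (∑ a, lam f k a * d a l x) ^ 2))
    (hs : ∀ w : κ → ℝ, (∀ f ∈ s, ∀ k, ∑ a, lam f k a * w a = 0) → w = 0) :
    SosF F G T := by
  classical
  obtain ⟨Q, hQ⟩ : ∃ Q : (κ → ℝ) → ℝ, Q = fun w => ∑ f ∈ s, c f * ∑ k, (∑ a, lam f k a * w a) ^ 2 :=
    ⟨_, rfl⟩
  have hQw : ∀ w, Q w = ∑ f ∈ s, c f * ∑ k, (∑ a, lam f k a * w a) ^ 2 := fun w => by rw [hQ]
  obtain ⟨m, hm, hmQ⟩ := exists_pd_lower (Q := Q)
    (by rw [hQ]; fun_prop)
    (by
      intro t w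
      rw [hQw, hQw, Finset.mul_sum]
      refine Finset.sum_congr rfl fun f _ => ?_
      rw [Finset.mul_sum, Finset.mul_sum, Finset.mul_sum]
      refine Finset.sum_congr rfl fun k _ => ?_
      have : ∑ a, lam f k a * (t • w) a = t * ∑ a, lam f k a * w a := by
        rw [Finset.mul_sum]
        exact Finset.sum_congr rfl fun a _ => by rw [Pi.smul_apply, smul_eq_mul]; ring
      rw [this]; ring)
    (by
      intro w hw
      have h1 : ∃ f ∈ s, ∃ k, ∑ a, lam f k a * w a ≠ 0 := by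
        by_contra h
        push Not at h
        exact hw (hs w h)
      obtain ⟨f, hf, k, hk⟩ := h1
      rw [hQw]
      refine Finset.sum_pos' (fun g _ => mul_nonneg (hc g).le
        (Finset.sum_nonneg fun k _ => sq_nonneg _)) ⟨f, hf, mul_pos (hc f) ?_⟩
      exact Finset.sum_pos' (fun k _ => sq_nonneg _) ⟨k, Finset.mem_univ k, by positivity⟩)
  have hcard : (0 : ℝ) < s.card := by
    have : 0 < s.card := Finset.card_pos.2 hsne
    exact_mod_cast this
  obtain ⟨δ, hδpos, hδ⟩ : ∃ δ : ℝ, 0 < δ ∧ (s.card : ℝ) * δ = m :=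
    ⟨m / s.card, by positivity, by field_simp⟩
  have h1 : SosF F G (fun l x => ∑ f ∈ s, (T l x + δ * ∑ a, d a l x ^ 2 -
      c f * ∑ k, (∑ a, lam f k a * d a l x) ^ 2)) :=
    SosF.sum _ fun f _ => hcs f δ hδpos
  -- the constant form
  obtain ⟨C, hCd⟩ : ∃ C : κ → κ → ℝ, C = fun a b => (∑ f ∈ s, c f * ∑ k, lam f k a * lam f k b) -
    if a = b then m else 0 := ⟨_, rfl⟩
  have hC : ∀ w : κ → ℝ, ∑ a, ∑ b, C a b * w a * w b = Q w - m * ∑ a, w a ^ 2 := by
    intro w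
    rw [hCd]
    show ∑ a, ∑ b, ((∑ f ∈ s, c f * ∑ k, lam f k a * lam f k b) - if a = b then m else 0) *
      w a * w b = _
    rw [quad_sub, quad_diag, quad_finset, Finset.sum_congr rfl fun f _ => quad_sq (c f) (lam f) w,
      hQw]
  have h2 : SosF F G (fun l x => ∑ a, ∑ b, C a b * d a l x * d b l x) := by
    refine sosF_pd hd C fun w hw => ?_
    have h := hmQ w hw
    rw [hC w]
    exact sub_pos.2 h
  have h3 := (h1.add h2).smul (c := (s.card : ℝ)⁻¹) (inv_nonneg.2 hcard.le)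
  refine h3.congr' fun l x => ?_
  have h4 := hC fun a => d a l x
  have h5 : ∑ f ∈ s, (T l x + δ * ∑ a, d a l x ^ 2 -
      c f * ∑ k, (∑ a, lam f k a * d a l x) ^ 2) =
      (s.card : ℝ) * (T l x + δ * ∑ a, d a l x ^ 2) - Q (fun a => d a l x) := by
    rw [Finset.sum_sub_distrib, Finset.sum_const, nsmul_eq_mul, hQw]
  show T l x = (s.card : ℝ)⁻¹ * ((∑ f ∈ s, (T l x + δ * ∑ a, d a l x ^ 2 -
      c f * ∑ k, (∑ a, lam f k a * d a l x) ^ 2)) + ∑ a, ∑ b, C a b * d a l x * d b l x)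
  rw [h5, h4]
  generalize Q (fun a => d a l x) = q
  generalize ∑ a, d a l x ^ 2 = t
  rw [← hδ]
  have hne := hcard.ne'
  field_simp
  ring

/-- **Common null vector.**  If `T` is not a sum of squares, then the null spaces of all its
representations in the generators `d` have a common nonzero vector. -/
theorem exists_common {κ : Type*} [Fintype κ] {T : L → X → ℝ} {d : κ → L → X → ℝ}
    (hd : ∀ a, FR (d a)) {Φ : Type*} [Nonempty Φ] {ι : Φ → Type*} [∀ f, Fintype (ι f)]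
    (r : ∀ f, KRep F G T d (ι f)) (hT : ¬ SosF F G T) :
    ∃ w : κ → ℝ, w ≠ 0 ∧ ∀ f, w ∈ (r f).N := by
  classical
  by_contra hcon
  push Not at hcon
  refine hT ?_
  obtain ⟨s0, hs0⟩ := exists_finset_inf fun f => (r f).N
  obtain ⟨f0⟩ := ‹Nonempty Φ›
  choose lam hlam using fun f => exists_forms (r f).N
  choose c hc hcs using fun f => (r f).star hd (lam f) (fun w hw k => (hlam f w).1 hw k)
  refine sosF_of_family hd (insert f0 s0) (Finset.insert_nonempty _ _) lam c hc hcs ?_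
  intro w hw
  by_contra hne
  obtain ⟨f, hf⟩ := hcon w hne
  exact hf (hs0 w (fun g hg => (hlam g w).2 (hw g (Finset.mem_insert_of_mem hg))) f)

end Vale.Agent.P256.H760
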