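import Vale.Agent.P256.H387.Iface

/-! Polynomial side of the reduction to a flat line: an irreducible hyperbolic polynomial does not
vanish on the hyperplane of the limit functional at a singular point; smooth boundary points on
that hyperplane have this functional as gradient. -/

set_option linter.all false

namespace Vale.Agent.P256.H760

open MvPolynomial Filter Topology Vale.Agent.P256 Vale.Agent.P256.H326 Vale.Agent.P256.H387

variable {n : ℕ} {p : MvPolynomial (Fin n) ℝ} {e : Fin n → ℝ}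

/-- the linear form with coefficients `c` -/
noncomputable def linf (c : Fin n → ℝ) : MvPolynomial (Fin n) ℝ := ∑ i, C (c i) * X i

theorem eval_linf (c x : Fin n → ℝ) : eval x (linf c) = ∑ i, c i * x i := by
  simp [linf]

theorem dd_mul' (q r : MvPolynomial (Fin n) ℝ) (z v : Fin n → ℝ) :
    dd (q * r) z v = dd q z v * eval z r + eval z q * dd r z v := by
  simp only [dd, Derivation.leibniz, smul_eq_mul, map_add, map_mul, Finset.sum_mul,
    Finset.mul_sum, ← Finset.sum_add_distrib]
  refine Finset.sum_congr rfl fun i _ => ?_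
  ring

theorem dd_linf (c z v : Fin n → ℝ) : dd (linf c) z v = ∑ i, c i * v i := by
  have h1 := eval_derivative_line (linf c) z v 0
  have h2 : line (linf c) z v = Polynomial.C (∑ i, c i * z i) +
      Polynomial.C (∑ i, c i * v i) * Polynomial.X := by
    refine Polynomial.funext fun t => ?_
    rw [eval_line, eval_linf]
    simp only [Polynomial.eval_add, Polynomial.eval_C, Polynomial.eval_mul, Polynomial.eval_X,
      Pi.add_apply, Pi.smul_apply, smul_eq_mul]
    rw [Finset.sum_mul, ← Finset.sum_add_distrib]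
    exact Finset.sum_congr rfl fun i _ => by ring
  rw [h2, zero_smul, add_zero, Polynomial.derivative_add, Polynomial.derivative_C,
    Polynomial.derivative_C_mul, Polynomial.derivative_X, mul_one, zero_add,
    Polynomial.eval_C] at h1
  exact h1.symm

/-- a polynomial vanishing on a hyperplane is divisible by its linear form -/
theorem linf_dvd (c : Fin n → ℝ) (hc : ∑ i, c i * e i = 1)
    (h : ∀ x : Fin n → ℝ, ∑ i, c i * x i = 0 → eval x p = 0) : linf c ∣ p := by
  -- the substitution `X_i ↦ X_i - e_i ℓ`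
  let φ : MvPolynomial (Fin n) ℝ →ₐ[ℝ] MvPolynomial (Fin n) ℝ :=
    aeval fun i => X i - C (e i) * linf c
  have h1 : φ p = 0 := by
    refine MvPolynomial.funext fun x => ?_
    have h2 : eval x (φ p) = eval (fun i => x i - e i * ∑ j, c j * x j) p := by
      have h3 : (aeval x : MvPolynomial (Fin n) ℝ →ₐ[ℝ] ℝ).comp φ =
          aeval (fun i => x i - e i * ∑ j, c j * x j) := by
        refine MvPolynomial.algHom_ext fun i => ?_
        simp only [φ, AlgHom.comp_apply, aeval_X, map_sub, map_mul]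
        rw [← eval_linf]
        simp only [aeval_C, MvPolynomial.coe_aeval_eq_eval]
        rfl
      have h4 := congrArg (fun ψ : MvPolynomial (Fin n) ℝ →ₐ[ℝ] ℝ => ψ p) h3
      exact h4
    rw [h2, map_zero]
    refine h _ ?_
    have h5 : ∑ i, c i * (x i - e i * ∑ j, c j * x j) =
        ∑ i, c i * x i - (∑ i, c i * e i) * ∑ j, c j * x j := by
      rw [Finset.sum_mul, ← Finset.sum_sub_distrib]
      exact Finset.sum_congr rfl fun i _ => by ring
    rw [h5, hc]; ring
  -- `p ≡ φ p` modulo `ℓ`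
  have h2 : (Ideal.Quotient.mkₐ ℝ (Ideal.span {linf c})).comp φ =
      Ideal.Quotient.mkₐ ℝ (Ideal.span {linf c}) := by
    refine MvPolynomial.algHom_ext fun i => ?_
    simp only [φ, AlgHom.comp_apply, aeval_X, map_sub, map_mul]
    have h3 : Ideal.Quotient.mkₐ ℝ (Ideal.span {linf c}) (linf c) = 0 := by
      rw [Ideal.Quotient.mkₐ_eq_mk, Ideal.Quotient.eq_zero_iff_mem]
      exact Ideal.mem_span_singleton_self _
    rw [h3, mul_zero, sub_zero]
  have h3 : Ideal.Quotient.mkₐ ℝ (Ideal.span {linf c}) p = 0 := by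
    rw [← h2, AlgHom.comp_apply, h1, map_zero]
  rw [Ideal.Quotient.mkₐ_eq_mk, Ideal.Quotient.eq_zero_iff_mem] at h3
  exact Ideal.mem_span_singleton.1 h3

/-- **(P1)** an irreducible polynomial which is singular at `z` in the direction `e` does not
vanish on a hyperplane transversal to `e` -/
theorem not_vanish_hyperplane (hirr : Irreducible p) {z : Fin n → ℝ} (hz : dd p z e = 0)
    (ζ : (Fin n → ℝ) →ₗ[ℝ] ℝ) (hz0 : ζ z = 0) (he : ζ e = 1) :
    ¬ ∀ x, ζ x = 0 → eval x p = 0 := by
  intro h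
  set c : Fin n → ℝ := fun i => ζ (Pi.single i 1) with hcdef
  have hζ : ∀ x : Fin n → ℝ, ζ x = ∑ i, c i * x i := by
    intro x
    have h1 : x = ∑ i, x i • (Pi.single i (1 : ℝ) : Fin n → ℝ) := by
      funext j
      simp [Finset.sum_apply, Pi.single_apply]
    conv_lhs => rw [h1]
    rw [map_sum]
    exact Finset.sum_congr rfl fun i _ => by rw [map_smul, smul_eq_mul, mul_comm]
  obtain ⟨q, hq⟩ := linf_dvd (p := p) (e := e) c (by rw [← hζ, he]) fun x hx =>
    h x (by rw [hζ, hx])
  have h1 : ¬ IsUnit (linf c) := by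
    intro hu
    have h2 := hu.map (eval (0 : Fin n → ℝ))
    rw [eval_linf] at h2
    simp at h2
  have h2 : IsUnit q := (hirr.isUnit_or_isUnit hq).resolve_left h1
  have h3 : eval z q ≠ 0 := (h2.map (eval z)).ne_zero
  rw [hq, dd_mul', dd_linf, eval_linf, ← hζ, ← hζ, he, hz0, one_mul, zero_mul, add_zero] at hz
  exact h3 hz

/-- the form of (P1) with lines through `z` -/
theorem exists_line_ne {d : ℕ} (hd : p.IsHomogeneous d) (hirr : Irreducible p)
    {z : Fin n → ℝ} (hz : dd p z e = 0) (ζ : (Fin n → ℝ) →ₗ[ℝ] ℝ) (hz0 : ζ z = 0)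
    (he : ζ e = 1) : ¬ ∀ w, ζ w = 0 → ∀ τ : ℝ, eval (z + τ • w) p = 0 := by
  intro h
  refine not_vanish_hyperplane hirr hz ζ hz0 he fun x hx => ?_
  have h1 := h (x - z) (by rw [map_sub, hx, hz0, sub_zero]) 1
  rwa [one_smul, add_sub_cancel] at h1

/-- for a basis `f, w` of the hyperplane modulo `z` there is a direction in which `p` does not
vanish on any punctured neighbourhood -/
theorem exists_dir_ne {d : ℕ} (hd : p.IsHomogeneous d) (hirr : Irreducible p)
    {z : Fin n → ℝ} (hz : dd p z e = 0) (ζ : (Fin n → ℝ) →ₗ[ℝ] ℝ) (hz0 : ζ z = 0)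
    (he : ζ e = 1) {f w : Fin n → ℝ}
    (hspan : ∀ v, ζ v = 0 → ∃ c b a : ℝ, v = c • z + b • f + a • w) :
    ∃ b a : ℝ, ∃ᶠ τ in 𝓝[≠] (0 : ℝ), eval (z + τ • (b • f + a • w)) p ≠ 0 := by
  by_contra hcon
  push Not at hcon
  refine exists_line_ne hd hirr hz ζ hz0 he fun v hv => ?_
  obtain ⟨c, b, a, rfl⟩ := hspan v hv
  have h1 : ∀ τ : ℝ, eval (z + τ • (b • f + a • w)) p = 0 := by
    have h2 := hcon b a
    have h3 : line p z (b • f + a • w) = 0 := by
      refine Polynomial.eq_zero_of_infinite_isRoot _ ?_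
      have h4 : {τ : ℝ | eval (z + τ • (b • f + a • w)) p = 0} ∈ 𝓝[≠] (0 : ℝ) := h2
      have h5 : {τ : ℝ | eval (z + τ • (b • f + a • w)) p = 0}.Infinite := fun hfin =>
        (infinite_of_mem_nhds (0 : ℝ) (insert_mem_nhds_iff.2 h4)) (hfin.insert 0)
      refine h5.mono ?_
      intro τ hτ
      show (line p z (b • f + a • w)).eval τ = 0
      rw [eval_line]
      exact hτ
    intro τ
    rw [← eval_line, h3, Polynomial.eval_zero]
  intro τ
  have h5 := plane_zero' ⟨d, hd⟩ h1 (1 + τ * c) τ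
  rw [← h5]
  congr 2
  module

/-- **(P2)** a smooth boundary point on the hyperplane of `ζ` has gradient `ζ` -/
theorem grad_eq (hp : IsHyperbolic p e) {ζ : (Fin n → ℝ) →ₗ[ℝ] ℝ} (he : ζ e = 1)
    (hK : ∀ x ∈ hypCone p e, 0 ≤ ζ x) {x : Fin n → ℝ} (hx : x ∈ smT p e) (h0 : ζ x = 0)
    (y : Fin n → ℝ) : dd p x y / dd p x e = ζ y := by
  have h1 := grad_prop hp hx.1.1 hx.1.2.1 hx.2 ζ hK h0 y
  rw [he, mul_one] at h1
  rw [← h1, mul_div_cancel_left₀ _ hx.2.ne']

end Vale.Agent.P256.H760
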